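import Vale.Agent.Lib.P199.Local

namespace Vale.Agent.Results.P199.B_centralizer

universe u

/-- Let `F` be a central subfield of a division ring `D` and `B` a finite-dimensional `F`-subalgebra
of `D`. If every finite subset of the centralizer of `B` in `D` generates a finite-dimensional
`F`-subalgebra, then every finite subset of `D` generates a finite-dimensional `F`-subalgebra. -/
theorem result {F D : Type u} [Field F] [DivisionRing D] [Algebra F D]
    (B : Subalgebra F D) [Module.Finite F B]
    (hC : ∀ U : Finset D, (U : Set D) ⊆ (Subalgebra.centralizer F (B : Set D) : Set D) →
      Module.Finite F (Algebra.adjoin F (U : Set D)))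
    (T : Finset D) : Module.Finite F (Algebra.adjoin F (T : Set D)) :=
  Vale.Agent.Lib.P199.locallyFinite_of_centralizer B hC T

end Vale.Agent.Results.P199.B_centralizer
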