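import Vale.Agent.Lib.P199.Elem

namespace Vale.Agent.Results.P199.C_elementary

universe u

/-- Let `D` be a division ring algebraic over a central subfield `F` (for instance its centre). If
`S` is a finite set of units of `D` such that the subgroup of `Dˣ` generated by `S` is elementary
amenable (for instance solvable or virtually solvable), then the `F`-subalgebra generated by `S`
is finite-dimensional. -/
theorem result {F D : Type u} [Field F] [DivisionRing D] [Algebra F D]
    (halg : Algebra.IsAlgebraic F D) (S : Finset Dˣ)
    (hS : Vale.Agent.Lib.P199.ElemAmenable (Subgroup.closure (S : Set Dˣ))) :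
    Module.Finite F (Algebra.adjoin F ((fun u : Dˣ => (u : D)) '' (S : Set Dˣ))) :=
  Vale.Agent.Lib.P199.finite_adjoin_of_elemAmenable halg S hS

end Vale.Agent.Results.P199.C_elementary
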