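import Vale.Agent.Results.P199.A_main
import Vale.Agent.Results.P199.B_centralizer
import Vale.Agent.Results.P199.C_elementary

namespace Vale.Agent.Results.P199.A00_master

universe u

/-- The three parts together, for a division ring `D` that is an algebra over a field `F`:
(1) if every nontrivial finite extension of `F` has a nontrivial `F`-automorphism, for every finite
extension `E` of `F` and every `F`-automorphism `σ` of `E` of prime order `l` every nonzero
`σ`-fixed element of `E` is a norm `∏_{i<l} σ^i c`, the centre of `D` comes from `F` and `D` is
algebraic over `F`, then `D = F`; (2) if `B` is a finite-dimensional `F`-subalgebra of `D` and every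
finite subset of the centralizer of `B` generates a finite-dimensional `F`-subalgebra, then so does
every finite subset of `D`; (3) if `D` is algebraic over `F` and `S` is a finite set of units whose
generated subgroup is elementary amenable, then `S` generates a finite-dimensional `F`-subalgebra. -/
theorem result {F D : Type u} [Field F] [DivisionRing D] [Algebra F D] :
    ((∀ (K : Type u) [Field K] [Algebra F K] [FiniteDimensional F K],
        (∃ x : K, x ∉ (algebraMap F K).range) → ∃ σ : K ≃ₐ[F] K, σ ≠ 1) →
      (∀ (E : Type u) [Field E] [Algebra F E] [FiniteDimensional F E] (σ : E ≃ₐ[F] E)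
        (l : ℕ), l.Prime → σ ^ l = 1 → σ ≠ 1 → ∀ y : E, y ≠ 0 → σ y = y →
        ∃ c : E, ∏ i ∈ Finset.range l, (σ ^ i) c = y) →
      (∀ x : D, (∀ y : D, x * y = y * x) → x ∈ (algebraMap F D).range) →
      Algebra.IsAlgebraic F D →
      Function.Surjective (algebraMap F D)) ∧
    (∀ (B : Subalgebra F D) [Module.Finite F B],
      (∀ U : Finset D, (U : Set D) ⊆ (Subalgebra.centralizer F (B : Set D) : Set D) →
        Module.Finite F (Algebra.adjoin F (U : Set D))) →
      ∀ T : Finset D, Module.Finite F (Algebra.adjoin F (T : Set D))) ∧
    (Algebra.IsAlgebraic F D → ∀ S : Finset Dˣ,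
      Vale.Agent.Lib.P199.ElemAmenable (Subgroup.closure (S : Set Dˣ)) →
      Module.Finite F (Algebra.adjoin F ((fun u : Dˣ => (u : D)) '' (S : Set Dˣ)))) :=
  ⟨fun hAut hNorm hcenter halg =>
      Vale.Agent.Results.P199.A_main.result hAut hNorm hcenter halg,
   fun B _ hC T => Vale.Agent.Results.P199.B_centralizer.result B hC T,
   fun halg S hS => Vale.Agent.Results.P199.C_elementary.result halg S hS⟩

end Vale.Agent.Results.P199.A00_master
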