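import Vale.Agent.Lib.P199.Comm

namespace Vale.Agent.Results.P199.A_main

universe u

/-- Let `D` be a division ring with centre `F` (given as an `F`-algebra whose central elements all
come from `F`) and algebraic over `F`. Assume that every nontrivial finite extension of `F` has a
nontrivial `F`-automorphism, and that for every finite extension `E` of `F` and every
`F`-automorphism `σ` of `E` of prime order `l`, every nonzero `σ`-fixed element of `E` is a norm
`∏_{i<l} σ^i c`. Then `D = F`. -/
theorem result {F D : Type u} [Field F] [DivisionRing D] [Algebra F D]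
    (hAut : ∀ (K : Type u) [Field K] [Algebra F K] [FiniteDimensional F K],
      (∃ x : K, x ∉ (algebraMap F K).range) → ∃ σ : K ≃ₐ[F] K, σ ≠ 1)
    (hNorm : ∀ (E : Type u) [Field E] [Algebra F E] [FiniteDimensional F E] (σ : E ≃ₐ[F] E)
      (l : ℕ), l.Prime → σ ^ l = 1 → σ ≠ 1 → ∀ y : E, y ≠ 0 → σ y = y →
      ∃ c : E, ∏ i ∈ Finset.range l, (σ ^ i) c = y)
    (hcenter : ∀ x : D, (∀ y : D, x * y = y * x) → x ∈ (algebraMap F D).range)
    (halg : Algebra.IsAlgebraic F D) :
    Function.Surjective (algebraMap F D) := by
  intro x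
  have h := Vale.Agent.Lib.P199.commutative_of_aut_of_norm hAut hNorm hcenter halg
  obtain ⟨f, hf⟩ := hcenter x (h x)
  exact ⟨f, hf⟩

end Vale.Agent.Results.P199.A_main
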